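import Vale.Agent.Lib.P064Two.Final

/-!
Around `a = 1 / d`: the two sides.
-/

open Finset

namespace Vale.Agent.Lib.P064Two

open Vale.Agent.Lib.P064 Vale.Agent.Lib.P064E Vale.Agent.Lib.P064U Vale.Agent.Lib.P064T
  Vale.Agent.Lib.P064Sep
open scoped Classical

/-- Arithmetic around `1 / d`, above. -/
lemma z_pair_up {a κ i d M u j m : ℝ} (hd : 0 < d) (hi : i * d = 1) (hM : κ * M = i / 2)
    (hMd : M = 2 * d * (u + 1)) (hκ0 : 0 ≤ κ) (hκ : κ ≤ i / 2) (hi0 : 0 < i) (hi1 : i ≤ 1 / 2) (ha1 : i - κ ≤ a)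
    (hj : j + 1 ≤ u) (hj0 : 0 ≤ j) (hm0 : 0 ≤ m) (hm : j * d + 1 ≤ m) : j + i / 2 ≤ m * a := by
  have h1 : m * (i - κ) ≤ m * a := mul_le_mul_of_nonneg_left ha1 hm0
  by_cases hmM : m ≤ M
  · have h2 : m * κ ≤ M * κ := mul_le_mul_of_nonneg_right hmM hκ0
    have h3 : (j * d + 1) * i ≤ m * i := mul_le_mul_of_nonneg_right hm hi0.le
    have h4 : (j * d + 1) * i = j * (i * d) + i := by ring
    rw [hi] at h4
    nlinarith
  · push Not at hmM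
    have h2 : i / 2 ≤ i - κ := by linarith
    have h3 : M * (i / 2) ≤ m * (i - κ) := mul_le_mul hmM.le h2 (by positivity) hm0
    have h4 : M * (i / 2) = (u + 1) * (i * d) := by
      rw [hMd]
      ring
    rw [hi] at h4
    linarith

/-- Arithmetic around `1 / d`, below. -/
lemma z_pair_down {a κ i d M u j m : ℝ} (hd : 0 < d) (hi : i * d = 1) (hM : κ * M = i / 2)
    (hMd : M = 2 * d * (u + 1)) (hκ0 : 0 ≤ κ) (ha2 : a ≤ i + κ) (hi0 : 0 < i)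
    (hj : j + 1 ≤ u) (hj0 : 0 ≤ j) (hm0 : 0 ≤ m) (hm : m + 1 ≤ j * d) : m * a ≤ j - i / 2 := by
  have h1 : m * a ≤ m * (i + κ) := mul_le_mul_of_nonneg_left ha2 hm0
  have hmM : m ≤ M := by
    have h2 : j * d ≤ u * d := mul_le_mul_of_nonneg_right (by linarith) hd.le
    have h3 : 0 ≤ u := by linarith
    have h4 : u * d ≤ 2 * d * (u + 1) := by nlinarith
    rw [hMd]
    linarith
  have h2 : m * κ ≤ M * κ := mul_le_mul_of_nonneg_right hmM hκ0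
  have h3 : (m + 1) * i ≤ (j * d) * i := mul_le_mul_of_nonneg_right hm hi0.le
  have h4 : (j * d) * i = j * (i * d) := by ring
  rw [hi] at h4
  nlinarith

/-- The room in terms of `a`. -/
lemma z_room {n : ℕ} {P a x : ℝ} {j m : ℕ} (hn0 : (0 : ℝ) < n) (hP0 : 0 < P)
    (hx : x = Real.log n) (hax : a * x = Real.log (1 / P)) :
    (n : ℝ) ^ j * P ^ m = Real.exp (((j : ℝ) - (m : ℝ) * a) * x) := by
  have h1 : Real.log P = - (a * x) := by
    rw [hax, one_div, Real.log_inv]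
    ring
  have h6 : Real.exp (((j : ℝ) - (m : ℝ) * a) * x) =
      Real.exp ((j : ℝ) * x) * Real.exp ((m : ℝ) * Real.log P) := by
    rw [← Real.exp_add, h1]
    congr 1
    ring
  rw [h6, Real.exp_nat_mul, Real.exp_nat_mul, hx, Real.exp_log hn0, Real.exp_log hP0]

/-- The size for `L ≥ L₁`. -/
lemma z_exp_big {x c d : ℝ} (hd : 0 < d) (hc : 0 ≤ c) (hx0 : 0 < x) (hx : 8 * c * d ^ 2 ≤ x) :
    c * x ≤ Real.exp (x * (1 / (2 * d))) := by
  have h1 := Real.quadratic_le_exp_of_nonneg (x := x * (1 / (2 * d))) (by positivity)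
  have h2 : (x * (1 / (2 * d))) ^ 2 / 2 = x ^ 2 / (8 * d ^ 2) := by
    field_simp
    ring
  have h3 : c * x ≤ x ^ 2 / (8 * d ^ 2) := by
    rw [le_div_iff₀ (by positivity)]
    have h4 : (8 * c * d ^ 2) * x ≤ x * x := mul_le_mul_of_nonneg_right hx hx0.le
    nlinarith
  have h5 : 0 ≤ x * (1 / (2 * d)) := by positivity
  linarith

/-- The standing facts around `1 / d`. -/
structure ZNear (n d u : ℕ) (a κ i M c x P : ℝ) : Prop where
  hd0 : (0 : ℝ) < d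
  hid : i * d = 1
  hidef : i = 1 / (d : ℝ)
  hκM : κ * M = i / 2
  hMdef : M = 2 * (d : ℝ) * ((u : ℝ) + 1)
  hκ0 : 0 ≤ κ
  hκi : κ ≤ i / 2
  hi0 : 0 < i
  hi1 : i ≤ 1 / 2
  ha_lo : i - κ ≤ a
  ha_hi : a ≤ i + κ
  hn0 : (0 : ℝ) < n
  hP0 : 0 < P
  hx : x = Real.log n
  hax : a * x = Real.log (1 / P)
  hx0 : 0 < x
  hcAx : 8 * (u : ℝ) / a * x ≤ c * x
  hbig : c * x ≤ Real.exp (x * (1 / (2 * (d : ℝ))))

lemma ZNear.few {n d u : ℕ} {a κ i M c x P : ℝ} (h : ZNear n d u a κ i M c x P) {j m : ℕ}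
    (hj : j < u) (hlt : m < j * d) : 8 * (u : ℝ) / a * x ≤ (n : ℝ) ^ j * P ^ m := by
  have hjR : (j : ℝ) + 1 ≤ u := by exact_mod_cast hj
  have hj0 : (0 : ℝ) ≤ j := Nat.cast_nonneg _
  have hm0 : (0 : ℝ) ≤ m := Nat.cast_nonneg _
  have hmR : (m : ℝ) + 1 ≤ (j : ℝ) * d := by exact_mod_cast hlt
  have h3 := z_pair_down h.hd0 h.hid h.hκM h.hMdef h.hκ0 h.ha_hi h.hi0 hjR hj0 hm0 hmR
  rw [z_room h.hn0 h.hP0 h.hx h.hax]
  refine h.hcAx.trans (h.hbig.trans (Real.exp_le_exp.2 ?_))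
  have h4 : 1 / (2 * (d : ℝ)) = i / 2 := by
    rw [h.hidef]
    have := h.hd0
    field_simp
  rw [h4]
  have h5 : i / 2 ≤ (j : ℝ) - (m : ℝ) * a := by linarith
  calc x * (i / 2) = (i / 2) * x := by ring
    _ ≤ _ := mul_le_mul_of_nonneg_right h5 h.hx0.le

lemma ZNear.many {n d u : ℕ} {a κ i M c x P : ℝ} (h : ZNear n d u a κ i M c x P) {j m : ℕ}
    (hj : j < u) (hgt : j * d < m) : (j : ℝ) + i / 2 ≤ (m : ℝ) * a := by
  have hjR : (j : ℝ) + 1 ≤ u := by exact_mod_cast hj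
  have hj0 : (0 : ℝ) ≤ j := Nat.cast_nonneg _
  have hm0 : (0 : ℝ) ≤ m := Nat.cast_nonneg _
  have hmR : (j : ℝ) * d + 1 ≤ (m : ℝ) := by exact_mod_cast hgt
  exact z_pair_up h.hd0 h.hid h.hκM h.hMdef h.hκ0 h.hκi h.hi0 h.hi1 h.ha_lo hjR hj0 hm0 hmR

/-- The separation below `1 / d`. -/
lemma ZNear.sep_below {n d u : ℕ} {a κ i M c x P : ℝ} (h : ZNear n d u a κ i M c x P)
    (hc1 : 1 ≤ c * x) (hroom : c * x ≤ (n : ℝ) * P ^ d) (j m : ℕ) (hj1 : 1 ≤ j) (hj : j < u) :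
    (j : ℝ) + i / 2 ≤ (m : ℝ) * a ∨ 8 * (u : ℝ) / a * x ≤ (n : ℝ) ^ j * P ^ m := by
  rcases lt_trichotomy m (j * d) with hlt | heq | hgt
  · exact Or.inr (h.few hj hlt)
  · right
    subst heq
    have h3 : (n : ℝ) ^ j * P ^ (j * d) = ((n : ℝ) * P ^ d) ^ j := by
      rw [mul_pow, ← pow_mul, mul_comm d j]
    rw [h3]
    have hroom1 : 1 ≤ (n : ℝ) * P ^ d := hc1.trans hroom
    have h4 : ((n : ℝ) * P ^ d) ^ 1 ≤ ((n : ℝ) * P ^ d) ^ j := pow_le_pow_right₀ hroom1 hj1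
    rw [pow_one] at h4
    exact h.hcAx.trans (hroom.trans h4)
  · exact Or.inl (h.many hj hgt)

/-- The separation above `1 / d`. -/
lemma ZNear.sep_above {n d u : ℕ} {a κ i M c x P t : ℝ} (h : ZNear n d u a κ i M c x P)
    (ht : 0 < t) (ht2 : t ≤ i / 2) (hta : i + t ≤ a) (j m : ℕ) (hj1 : 1 ≤ j) (hj : j < u) :
    (j : ℝ) + t ≤ (m : ℝ) * a ∨ 8 * (u : ℝ) / a * x ≤ (n : ℝ) ^ j * P ^ m := by
  have hd1 : (0 : ℝ) ≤ d := h.hd0.le
  rcases lt_trichotomy m (j * d) with hlt | heq | hgt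
  · exact Or.inr (h.few hj hlt)
  · left
    subst heq
    have hj1R : (1 : ℝ) ≤ j := by exact_mod_cast hj1
    have hdd : (1 : ℝ) ≤ d := by
      have hdn : 0 < d := by exact_mod_cast h.hd0
      exact_mod_cast hdn
    have hjd : (1 : ℝ) ≤ (j : ℝ) * d := by nlinarith
    have h3 : (j : ℝ) * d * (i + t) ≤ ((j * d : ℕ) : ℝ) * a := by
      push_cast
      exact mul_le_mul_of_nonneg_left hta (by positivity)
    have h4 : (j : ℝ) * d * (i + t) = (j : ℝ) * (i * d) + (j : ℝ) * d * t := by ring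
    rw [h.hid] at h4
    have h5 : 1 * t ≤ (j : ℝ) * d * t := mul_le_mul_of_nonneg_right hjd ht.le
    linarith
  · left
    have h3 := h.many hj hgt
    linarith

/-- Closing the case below `1 / d`. -/
lemma z_finish_below {Cz C a i d x PY T1 T2 : ℝ} (hCz : 0 < Cz) (hPY : 0 ≤ PY) (hx0 : 0 < x)
    (ha0 : 0 < a) (hAinv : 1 / a ≤ 2 * d) (hid : i = 1 / d) (hd0 : 0 < d)
    (hCC : Cz * (64 * d ^ 6) ≤ C)
    (h1 : T1 ≤ Cz * (1 / (a * (i / 2)) ^ 3) * PY)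
    (h2 : T2 ≤ Cz * (1 / (a * (i / 2)) ^ 3) * x * PY) : T1 ≤ C * PY ∧ T2 ≤ C * x * PY := by
  have hinv : 1 / (a * (i / 2)) ^ 3 ≤ 64 * d ^ 6 := by
    have h3 : 1 / (a * (i / 2)) = (1 / a) * (d * 2) := by
      rw [hid]
      field_simp
    have h4 : 1 / (a * (i / 2)) ≤ (2 * d) * (d * 2) := by
      rw [h3]
      exact mul_le_mul_of_nonneg_right hAinv (by positivity)
    have h5 : 1 / (a * (i / 2)) ^ 3 = (1 / (a * (i / 2))) ^ 3 := by
      rw [one_div_pow]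
    rw [h5]
    have hi0 : 0 < i := by rw [hid]; positivity
    have h6 : 0 ≤ 1 / (a * (i / 2)) := by positivity
    calc (1 / (a * (i / 2))) ^ 3 ≤ ((2 * d) * (d * 2)) ^ 3 := pow_le_pow_left₀ h6 h4 3
      _ = _ := by ring
  have hCC2 : Cz * (1 / (a * (i / 2)) ^ 3) ≤ C :=
    (mul_le_mul_of_nonneg_left hinv hCz.le).trans hCC
  constructor
  · exact h1.trans (mul_le_mul_of_nonneg_right hCC2 hPY)
  · refine h2.trans ?_
    apply mul_le_mul_of_nonneg_right _ hPY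
    exact mul_le_mul_of_nonneg_right hCC2 hx0.le

/-- Closing the case above `1 / d`. -/
lemma z_finish_above {Cz C a d t x PY T1 T2 : ℝ} (hCz : 0 < Cz) (hPY : 0 ≤ PY) (hx0 : 0 < x)
    (ha0 : 0 < a) (ht : 0 < t) (hAinv : 1 / a ≤ 2 * d)
    (hCC : Cz * (8 * d ^ 3) ≤ C)
    (h1 : T1 ≤ Cz * (1 / (a * t) ^ 3) * PY)
    (h2 : T2 ≤ Cz * (1 / (a * t) ^ 3) * x * PY) :
    T1 ≤ C * (1 / t ^ 3) * PY ∧ T2 ≤ C * (1 / t ^ 3) * x * PY := by
  have hAinv0 : 0 ≤ 1 / a := by positivity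
  have hinv : 1 / (a * t) ^ 3 ≤ 8 * d ^ 3 * (1 / t ^ 3) := by
    have h3 : 1 / (a * t) ^ 3 = (1 / a) ^ 3 * (1 / t ^ 3) := by
      field_simp
    rw [h3]
    apply mul_le_mul_of_nonneg_right _ (by positivity)
    calc (1 / a) ^ 3 ≤ (2 * d) ^ 3 := pow_le_pow_left₀ hAinv0 hAinv 3
      _ = _ := by ring
  have hCC2 : Cz * (1 / (a * t) ^ 3) ≤ C * (1 / t ^ 3) := by
    have h3 : Cz * (1 / (a * t) ^ 3) ≤ Cz * (8 * d ^ 3 * (1 / t ^ 3)) :=
      mul_le_mul_of_nonneg_left hinv hCz.le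
    have h6 : Cz * (8 * d ^ 3 * (1 / t ^ 3)) = (Cz * (8 * d ^ 3)) * (1 / t ^ 3) := by
      ring
    rw [h6] at h3
    exact h3.trans (mul_le_mul_of_nonneg_right hCC (by positivity))
  constructor
  · exact h1.trans (mul_le_mul_of_nonneg_right hCC2 hPY)
  · refine h2.trans ?_
    apply mul_le_mul_of_nonneg_right _ hPY
    exact mul_le_mul_of_nonneg_right hCC2 hx0.le

/-- The core: around `1 / d`, exponent `3 / u`. -/
theorem z_near_core (d u : ℕ) (hd : 2 ≤ d) (hu : 2 ≤ u) :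
    ∃ κ C₁ C : ℝ, 0 < κ ∧ 0 < C₁ ∧ 0 < C ∧ ∀ n : ℕ, 3 ≤ n →
      ∀ (V : Type) [Fintype V] (H : SimpleGraph V), Fintype.card V ≤ n → H ≠ ⊥ →
      ∀ a : ℝ, a = Real.log (1 / max (pE n H) (1 / (n : ℝ))) / Real.log n →
      |a - 1 / (d : ℝ)| ≤ κ →
      (C₁ * Real.log n ≤ (n : ℝ) * max (pE n H) (1 / (n : ℝ)) ^ d →
        pTilde n H ≤ C * (max (pE n H) (1 / (n : ℝ)) * (Real.log n) ^ ((3 : ℝ) / u)) ∧
        pc n H ≤ C * Real.log n * (max (pE n H) (1 / (n : ℝ)) * (Real.log n) ^ ((3 : ℝ) / u))) ∧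
      (∀ t : ℝ, 0 < t → 1 / (d : ℝ) + t ≤ a →
        pTilde n H ≤ C * (1 / t ^ 3) *
          (max (pE n H) (1 / (n : ℝ)) * (Real.log n) ^ ((3 : ℝ) / u)) ∧
        pc n H ≤ C * (1 / t ^ 3) * Real.log n *
          (max (pE n H) (1 / (n : ℝ)) * (Real.log n) ^ ((3 : ℝ) / u))) := by
  have hdR : (2 : ℝ) ≤ d := by exact_mod_cast hd
  have huR : (2 : ℝ) ≤ u := by exact_mod_cast hu
  have hd0 : (0 : ℝ) < d := by linarith
  have hu0 : (0 : ℝ) < u := by linarith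
  obtain ⟨Cz, hCz, hz⟩ := z_two_sided u hu
  obtain ⟨Cu, hCu, hunif⟩ := thresholds_uniform (1 / 2) (by norm_num)
  obtain ⟨i, hidef⟩ : ∃ i : ℝ, i = 1 / (d : ℝ) := ⟨_, rfl⟩
  have hi0 : 0 < i := by rw [hidef]; positivity
  have hid : i * d = 1 := by
    rw [hidef]
    field_simp
  have hi1 : i ≤ 1 / 2 := by
    rw [hidef]
    apply one_div_le_one_div_of_le (by norm_num) hdR
  obtain ⟨M, hMdef⟩ : ∃ M : ℝ, M = 2 * (d : ℝ) * ((u : ℝ) + 1) := ⟨_, rfl⟩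
  have hM0 : 0 < M := by rw [hMdef]; positivity
  have hM1 : 1 ≤ M := by
    rw [hMdef]
    nlinarith
  obtain ⟨κ, hκdef⟩ : ∃ κ : ℝ, κ = i / 2 / M := ⟨_, rfl⟩
  have hκ0 : 0 < κ := by rw [hκdef]; positivity
  have hκM : κ * M = i / 2 := by
    rw [hκdef]
    field_simp
  have hκi : κ ≤ i / 2 := by
    rw [hκdef]
    apply div_le_self (by positivity) hM1
  obtain ⟨c, hcdef⟩ : ∃ c : ℝ, c = 16 * (u : ℝ) * (d : ℝ) := ⟨_, rfl⟩
  have hc0 : 0 < c := by rw [hcdef]; positivity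
  have hc1 : 1 ≤ c := by
    rw [hcdef]
    nlinarith
  obtain ⟨L₁, hL₁⟩ : ∃ L₁ : ℝ, L₁ = 8 * c * (d : ℝ) ^ 2 := ⟨_, rfl⟩
  have hL₁1 : 1 ≤ L₁ := by
    rw [hL₁]
    nlinarith
  have hCe : 0 < Real.exp 1 := Real.exp_pos _
  have hdpow : 1 ≤ (d : ℝ) ^ 6 := one_le_pow₀ (by linarith)
  have hd3 : (8 : ℝ) * (d : ℝ) ^ 3 ≤ 64 * (d : ℝ) ^ 6 := by
    have h1 : (d : ℝ) ^ 3 ≤ (d : ℝ) ^ 6 := pow_le_pow_right₀ (by linarith) (by norm_num)
    linarith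
  obtain ⟨C, hC⟩ : ∃ C : ℝ, C = Cz * (64 * (d : ℝ) ^ 6) + Cu * L₁ + 4 * Real.exp 1 + 1 := ⟨_, rfl⟩
  have hCzd : 0 < Cz * (64 * (d : ℝ) ^ 6) := by positivity
  have hCL : 0 < Cu * L₁ := by positivity
  have hC0 : 0 < C := by rw [hC]; linarith
  have hCC6 : Cz * (64 * (d : ℝ) ^ 6) ≤ C := by rw [hC]; linarith
  have hCC3 : Cz * (8 * (d : ℝ) ^ 3) ≤ C :=
    (mul_le_mul_of_nonneg_left hd3 hCz.le).trans hCC6
  have hL₀C : Cu * L₁ + 4 * Real.exp 1 ≤ C := by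
    rw [hC]
    linarith
  refine ⟨κ, c, C, hκ0, hc0, hC0, ?_⟩
  intro n hn V _ H hV hH a ha hnear
  have hnR : (3 : ℝ) ≤ n := by exact_mod_cast hn
  have hn0 : (0 : ℝ) < n := by linarith
  obtain ⟨x, hx⟩ : ∃ x, x = Real.log n := ⟨_, rfl⟩
  have hzn := hz n hn V H hV hH a ha
  have hu' := hunif n hn V H hV hH
  rw [← hx] at ha hzn hu' ⊢
  have hx1 : 1 ≤ x := by
    rw [hx, Real.le_log_iff_exp_le hn0]
    have := Real.exp_one_lt_d9
    linarith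
  have hx0 : 0 < x := by linarith
  have hn2 : 2 ≤ n := by omega
  have hE0 := pE_pos hn2 hV hH
  obtain ⟨P, hP⟩ : ∃ P, P = max (pE n H) (1 / (n : ℝ)) := ⟨_, rfl⟩
  rw [← hP] at ha hzn hu' ⊢
  have hP0 : 0 < P := by rw [hP]; exact lt_max_of_lt_left hE0
  have hax : a * x = Real.log (1 / P) := by
    rw [ha]
    field_simp
  rw [← hidef] at hnear ⊢
  obtain ⟨hna1, hna2⟩ := abs_le.1 hnear
  have ha_lo : i - κ ≤ a := by linarith
  have ha_hi : a ≤ i + κ := by linarith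
  have ha_half : i / 2 ≤ a := by linarith
  have ha0 : 0 < a := by linarith
  obtain ⟨Y, hY⟩ : ∃ Y, Y = x ^ ((3 : ℝ) / u) := ⟨_, rfl⟩
  have hY1 : 1 ≤ Y := by
    rw [hY]
    exact Real.one_le_rpow hx1 (by positivity)
  rw [← hY] at hzn ⊢
  have hY0 : 0 < Y := by linarith
  have hPY : 0 < P * Y := by positivity
  -- the size of the hypothesis
  have hcA : 8 * (u : ℝ) / a ≤ c := by
    rw [div_le_iff₀ ha0, hcdef]
    have h1 : 16 * (u : ℝ) * (d : ℝ) * (i / 2) ≤ 16 * (u : ℝ) * (d : ℝ) * a :=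
      mul_le_mul_of_nonneg_left ha_half (by positivity)
    have h2 : 16 * (u : ℝ) * (d : ℝ) * (i / 2) = 8 * (u : ℝ) * (i * d) := by ring
    rw [h2, hid] at h1
    linarith
  have hcAx : 8 * (u : ℝ) / a * x ≤ c * x := mul_le_mul_of_nonneg_right hcA hx0.le
  have hAinv : 1 / a ≤ 2 * d := by
    rw [div_le_iff₀ ha0]
    have h1 : 2 * (d : ℝ) * (i / 2) ≤ 2 * (d : ℝ) * a :=
      mul_le_mul_of_nonneg_left ha_half (by positivity)
    have h2 : 2 * (d : ℝ) * (i / 2) = i * d := by ring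
    rw [h2, hid] at h1
    linarith
  by_cases hxL : x < L₁
  · refine ⟨fun _ => ?_, fun t ht hta => ?_⟩
    · exact y_small_case (q := P) hV hx1 hP0 hY1 hC0 hCu hL₁1 hL₀C (by linarith) hu' (Or.inl hxL)
    · have ht1 : t ≤ 1 := by linarith
      have hr1 : 1 ≤ 1 / t ^ 3 := by
        rw [le_div_iff₀ (by positivity)]
        have : t ^ 3 ≤ 1 ^ 3 := pow_le_pow_left₀ ht.le ht1 3
        linarith
      have hC1 : C ≤ C * (1 / t ^ 3) := le_mul_of_one_le_right hC0.le hr1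
      exact y_small_case (q := P) (C := C * (1 / t ^ 3)) hV hx1 hP0 hY1 (by positivity) hCu hL₁1
        (hL₀C.trans hC1) (by linarith) hu' (Or.inl hxL)
  · push Not at hxL
    have hbig : c * x ≤ Real.exp (x * (1 / (2 * (d : ℝ)))) :=
      z_exp_big hd0 hc0.le hx0 (by rw [← hL₁]; exact hxL)
    have hZ : ZNear n d u a κ i M c x P :=
      { hd0 := hd0, hid := hid, hidef := hidef, hκM := hκM, hMdef := hMdef, hκ0 := hκ0.le,
        hκi := hκi, hi0 := hi0, hi1 := hi1, ha_lo := ha_lo, ha_hi := ha_hi, hn0 := hn0, hP0 := hP0,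
        hx := hx, hax := hax, hx0 := hx0, hcAx := hcAx, hbig := hbig }
    have hc1x : 1 ≤ c * x := by
      have : 1 * 1 ≤ c * x := mul_le_mul hc1 hx1 (by norm_num) hc0.le
      linarith
    refine ⟨fun hroom => ?_, fun t ht hta => ?_⟩
    · obtain ⟨h1, h2⟩ := hzn ha0 (i / 2) (by positivity) (by linarith)
        (fun j m hj1 hj _ => hZ.sep_below hc1x hroom j m hj1 hj)
      exact z_finish_below hCz hPY.le hx0 ha0 hAinv hidef hd0 hCC6 h1 h2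
    · have ht2 : t ≤ i / 2 := by linarith
      obtain ⟨h1, h2⟩ := hzn ha0 t ht (by linarith)
        (fun j m hj1 hj _ => hZ.sep_above ht ht2 hta j m hj1 hj)
      exact z_finish_above hCz hPY.le hx0 ha0 ht hAinv hCC3 h1 h2

/-- Around `1 / d`, any positive exponent. -/
theorem z_near_unit (d : ℕ) (hd : 2 ≤ d) {ε : ℝ} (hε : 0 < ε) :
    ∃ κ C₁ C : ℝ, 0 < κ ∧ 0 < C₁ ∧ 0 < C ∧ ∀ n : ℕ, 3 ≤ n →
      ∀ (V : Type) [Fintype V] (H : SimpleGraph V), Fintype.card V ≤ n → H ≠ ⊥ →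
      ∀ a : ℝ, a = Real.log (1 / max (pE n H) (1 / (n : ℝ))) / Real.log n →
      |a - 1 / (d : ℝ)| ≤ κ →
      (C₁ * Real.log n ≤ (n : ℝ) * max (pE n H) (1 / (n : ℝ)) ^ d →
        pTilde n H ≤ C * (max (pE n H) (1 / (n : ℝ)) * (Real.log n) ^ ε) ∧
        pc n H ≤ C * Real.log n * (max (pE n H) (1 / (n : ℝ)) * (Real.log n) ^ ε)) ∧
      (∀ t : ℝ, 0 < t → 1 / (d : ℝ) + t ≤ a →
        pTilde n H ≤ C * (1 / t ^ 3) * (max (pE n H) (1 / (n : ℝ)) * (Real.log n) ^ ε) ∧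
        pc n H ≤ C * (1 / t ^ 3) * Real.log n *
          (max (pE n H) (1 / (n : ℝ)) * (Real.log n) ^ ε)) := by
  obtain ⟨u, hu⟩ : ∃ u : ℕ, u = max 2 ⌈3 / ε⌉₊ := ⟨_, rfl⟩
  have hu2 : 2 ≤ u := by
    rw [hu]
    exact le_max_left _ _
  have hu3 : 3 / ε ≤ u := by
    have h1 : ⌈3 / ε⌉₊ ≤ u := by
      rw [hu]
      exact le_max_right _ _
    have h2 : ((⌈3 / ε⌉₊ : ℕ) : ℝ) ≤ u := by exact_mod_cast h1
    exact (Nat.le_ceil _).trans h2
  have hu0 : (0 : ℝ) < u := by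
    have : (2 : ℝ) ≤ u := by exact_mod_cast hu2
    linarith
  have hexp : (3 : ℝ) / u ≤ ε := by
    rw [div_le_iff₀ hu0]
    rw [div_le_iff₀ hε] at hu3
    linarith
  obtain ⟨κ, C₁, C, hκ, hC₁, hC, h⟩ := z_near_core d u hd hu2
  refine ⟨κ, C₁, C, hκ, hC₁, hC, ?_⟩
  intro n hn V _ H hV hH a ha hnear
  obtain ⟨h1, h2⟩ := h n hn V H hV hH a ha hnear
  have hnR : (3 : ℝ) ≤ n := by exact_mod_cast hn
  have hL : 1 ≤ Real.log n := by
    rw [Real.le_log_iff_exp_le (by linarith)]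
    have := Real.exp_one_lt_d9
    linarith
  have hL0 : 0 ≤ Real.log n := by linarith
  have hP0 : 0 ≤ max (pE n H) (1 / (n : ℝ)) := le_max_of_le_right (by positivity)
  have hpow : (Real.log n) ^ ((3 : ℝ) / u) ≤ (Real.log n) ^ ε :=
    Real.rpow_le_rpow_of_exponent_le hL hexp
  have hmul : max (pE n H) (1 / (n : ℝ)) * (Real.log n) ^ ((3 : ℝ) / u) ≤
      max (pE n H) (1 / (n : ℝ)) * (Real.log n) ^ ε := mul_le_mul_of_nonneg_left hpow hP0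
  constructor
  · intro hroom
    obtain ⟨h3, h4⟩ := h1 hroom
    exact ⟨h3.trans (mul_le_mul_of_nonneg_left hmul hC.le),
      h4.trans (mul_le_mul_of_nonneg_left hmul (by positivity))⟩
  · intro t ht hta
    obtain ⟨h3, h4⟩ := h2 t ht hta
    exact ⟨h3.trans (mul_le_mul_of_nonneg_left hmul (by positivity)),
      h4.trans (mul_le_mul_of_nonneg_left hmul (by positivity))⟩

end Vale.Agent.Lib.P064Two
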