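import Vale.Agent.Lib.P064Sep.Params

/-!
The parameters, with the one-sided separation.
-/

open Finset

namespace Vale.Agent.Lib.P064

/-- The standing separation: either `m lam` is `δ L` above `j L`, or the room `n^j q^m` is at least `A L`. -/
def ZSep (n : ℕ) (q δ A : ℝ) (μ₀ : ℕ) : Prop :=
  ∀ j m : ℕ, 1 ≤ j → j < μ₀ →
    δ * Real.log n ≤ (m : ℝ) * (- Real.log q) - (j : ℝ) * Real.log n ∨
      A * Real.log n ≤ (n : ℝ) ^ j * q ^ m

/-- From `exists_weights` with `τ₀ = δ / (16 (μ₀ + 1))`. -/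
theorem z_params {V : Type} [Fintype V] {H : SimpleGraph V} {n : ℕ} {q δ δa A : ℝ} {μ₀ : ℕ} (hn : 1 ≤ n)
    (hq0 : 0 < q) (hqe : q ≤ Real.exp (-1)) (hG : GoodDensity n q H) (hD : 1 ≤ (n : ℝ) * q)
    (hL : 1 ≤ Real.log n) (hδ0 : 0 < δ) (hδ1 : δ ≤ 1) (hμ₀ : 1 ≤ μ₀)
    (hδa0 : 0 < δa) (hA : 1 ≤ A)
    (hlam : δa * Real.log n ≤ - Real.log q) (hsep : ZSep n q δ A μ₀)
    (hbig : 2 * (μ₀ : ℝ) ≤ δ * Real.log n) :
    ∃ (w : V → V → ℕ) (M c T : ℕ), (∀ a b, H.Adj a b → w a b + w b a = M) ∧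
      (∀ a, ∑ b, w a b ≤ c) ∧ 1 ≤ T ∧ 2 * T ≤ M ∧
      c / T ≤ ⌈(1 / δa + 1) / (δ / (16 * ((μ₀ : ℝ) + 1)))⌉₊ ∧
      (∀ j m : ℕ, 1 ≤ j → (n : ℝ) ^ j * (Real.exp 1 * q) ^ m < 1 →
        M * m + T * j ≤ c * j + T * (m + 1) → (μ₀ : ℝ) ≤ (j : ℝ)) := by
  have hμ1 : (1 : ℝ) ≤ μ₀ := by exact_mod_cast hμ₀
  have hμp : (0 : ℝ) < (μ₀ : ℝ) + 1 := by linarith
  have hτ₀0 : 0 < δ / (16 * ((μ₀ : ℝ) + 1)) := by positivity
  have hτ₀1 : δ / (16 * ((μ₀ : ℝ) + 1)) ≤ 1 / 16 := by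
    rw [div_le_div_iff₀ (by positivity) (by norm_num)]
    nlinarith
  obtain ⟨w, M, c, T, hM1, hT1, hw, hs, hTM, hcM, hcT⟩ :=
    Vale.Agent.Lib.P064N.exists_weights (H := H) hn hq0 hqe hG hτ₀0 hτ₀1
  have hn1 : (1 : ℝ) ≤ n := by exact_mod_cast hn
  have hn0 : (0 : ℝ) < n := by linarith
  have hL0 : 0 < Real.log n := by linarith
  have hQ1 : 1 ≤ - Real.log q := by
    have := Real.log_le_log hq0 hqe
    rw [Real.log_exp] at this
    linarith
  have hQ0 : 0 < - Real.log q := by linarith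
  have hMpos : (0 : ℝ) < M := by exact_mod_cast hM1
  have hg : Real.log ((n : ℝ) * q) = Real.log n + Real.log q :=
    Real.log_mul hn0.ne' hq0.ne'
  have hg0 : 0 ≤ Real.log ((n : ℝ) * q) := Real.log_nonneg hD
  obtain ⟨τ, hτdef⟩ : ∃ τ : ℝ, τ = 2 * (δ / (16 * ((μ₀ : ℝ) + 1))) := ⟨_, rfl⟩
  have hτ0 : 0 ≤ τ := by rw [hτdef]; positivity
  have hTτ : (T : ℝ) ≤ τ * M := by
    rw [div_le_iff₀ hMpos] at hTM
    rw [hτdef]
    exact hTM
  have hτμ : τ * ((μ₀ : ℝ) + 1) ≤ δ / 8 := by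
    rw [hτdef]
    have h : 2 * (δ / (16 * ((μ₀ : ℝ) + 1))) * ((μ₀ : ℝ) + 1) = δ / 8 := by
      field_simp
      ring
    rw [h]
  have hτ1 : τ ≤ 1 / 8 := by
    rw [hτdef]
    linarith
  refine ⟨w, M, c, T, hw, hs, hT1, ?_, ?_, ?_⟩
  · have : (2 : ℝ) * T ≤ M := by
      have h0 : (0 : ℝ) ≤ T := Nat.cast_nonneg _
      nlinarith
    exact_mod_cast this
  · have h1 : Real.log n / (- Real.log q) ≤ 1 / δa := by
      rw [div_le_div_iff₀ hQ0 hδa0]
      linarith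
    have h2 : (Real.log n / (- Real.log q) + 1) / (δ / (16 * ((μ₀ : ℝ) + 1))) ≤
        (1 / δa + 1) / (δ / (16 * ((μ₀ : ℝ) + 1))) := by
      apply div_le_div_of_nonneg_right _ hτ₀0.le
      linarith
    have h3 := hcT.trans h2
    have h4 := h3.trans (Nat.le_ceil _)
    exact_mod_cast h4
  · intro j m hj1 hlow hcap
    by_contra hcon
    push Not at hcon
    have hjlt : j < μ₀ := by exact_mod_cast hcon
    have hj1R : (1 : ℝ) ≤ j := by exact_mod_cast hj1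
    have hjμ : (j : ℝ) + 1 ≤ μ₀ := by exact_mod_cast hjlt
    have hm0 : (0 : ℝ) ≤ m := Nat.cast_nonneg _
    have hcap' : (M : ℝ) * m + T * j ≤ c * j + T * (m + 1) := by exact_mod_cast hcap
    have hc1 : (c : ℝ) * (- Real.log q) ≤ (Real.log n + 1) * M := by
      rw [div_mul_eq_mul_div, div_le_iff₀ hMpos] at hcM
      exact hcM
    have hlamx : - Real.log q ≤ Real.log n := by
      rw [hg] at hg0
      linarith
    -- low: `m lam > j L`
    have hlog : (j : ℝ) * Real.log n + (m : ℝ) * (1 + Real.log q) < 0 := by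
      have h5 : 0 < (n : ℝ) ^ j * (Real.exp 1 * q) ^ m := by positivity
      have h6 := Real.log_lt_log h5 hlow
      rw [Real.log_one, Real.log_mul (by positivity) (by positivity), Real.log_pow, Real.log_pow,
        Real.log_mul (Real.exp_pos 1).ne' hq0.ne', Real.log_exp] at h6
      exact h6
    have hs1 : δ * Real.log n ≤ (m : ℝ) * (- Real.log q) - (j : ℝ) * Real.log n := by
      rcases hsep j m hj1 hjlt with h | h
      · exact h
      · exfalso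
        have hq1 : (n : ℝ) ^ j * q ^ m ≤ (n : ℝ) ^ j * (Real.exp 1 * q) ^ m := by
          apply mul_le_mul_of_nonneg_left _ (by positivity)
          apply pow_le_pow_left₀ hq0.le
          have he : (1 : ℝ) ≤ Real.exp 1 := Real.one_le_exp (by norm_num)
          nlinarith
        have h1 : 1 ≤ A * Real.log n := by nlinarith
        linarith
    exact y_mu_num (x := Real.log n) (lam := - Real.log q) (M := M) (T := T) (c := c) (j := j)
      (m := m) (δ := δ) (τ := τ) (μ₀ := μ₀) hMpos (Nat.cast_nonneg _) hTτ hτ0 hτμ hδ0 hδ1 hQ0 hlamx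
      hc1 hcap' hj1R hjμ (by linarith) hbig hL0 hm0

/-- A set of fewer than `μ₀` vertices which is not low: the number of its edges is bounded, and
its room is at least `A L`. -/
theorem z_notlow {n : ℕ} {q δ δa A : ℝ} {μ₀ j m : ℕ} (hq0 : 0 < q)
    (hL : 1 ≤ Real.log n) (hδ0 : 0 < δ) (hδ1 : δ ≤ 1) (hδa0 : 0 < δa)
    (hlam : δa * Real.log n ≤ - Real.log q) (hsep : ZSep n q δ A μ₀)
    (hbig : 4 * (μ₀ : ℝ) ≤ δa * δ * Real.log n) (hj1 : 1 ≤ j) (hj : j < μ₀)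
    (hn : 1 ≤ n)
    (hτ : 1 ≤ (n : ℝ) ^ j * (Real.exp 1 * q) ^ m) :
    (m : ℝ) ≤ 2 * μ₀ / δa ∧ A * Real.log n ≤ (n : ℝ) ^ j * q ^ m := by
  have hn1 : (1 : ℝ) ≤ n := by exact_mod_cast hn
  have hn0 : (0 : ℝ) < n := by linarith
  have hL0 : 0 < Real.log n := by linarith
  have hjR : (j : ℝ) + 1 ≤ μ₀ := by exact_mod_cast hj
  have hj0 : (0 : ℝ) ≤ j := Nat.cast_nonneg _
  have hj1R : (1 : ℝ) ≤ j := by exact_mod_cast hj1
  have hm0 : (0 : ℝ) ≤ m := Nat.cast_nonneg _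
  have hμ2 : (2 : ℝ) ≤ μ₀ := by linarith
  have hlog : 0 ≤ (j : ℝ) * Real.log n + (m : ℝ) * (1 + Real.log q) := by
    have h1 := Real.log_nonneg hτ
    rw [Real.log_mul (by positivity) (by positivity), Real.log_pow, Real.log_pow,
      Real.log_mul (Real.exp_pos 1).ne' hq0.ne', Real.log_exp] at h1
    exact h1
  have hδL : δa * δ * Real.log n ≤ δa * Real.log n := by
    have h1 : δa * δ ≤ δa * 1 := mul_le_mul_of_nonneg_left hδ1 hδa0.le
    have h2 := mul_le_mul_of_nonneg_right h1 hL0.le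
    linarith
  have hlam2 : δa * Real.log n / 2 ≤ - Real.log q - 1 := by linarith
  have hmb : (m : ℝ) * (δa * Real.log n / 2) ≤ (j : ℝ) * Real.log n := by
    have h2 : (m : ℝ) * (δa * Real.log n / 2) ≤ (m : ℝ) * (- Real.log q - 1) :=
      mul_le_mul_of_nonneg_left hlam2 hm0
    nlinarith
  have hm2 : (m : ℝ) * δa ≤ 2 * j := by
    have h3 : ((m : ℝ) * δa) * (Real.log n / 2) ≤ (j : ℝ) * Real.log n := by
      calc ((m : ℝ) * δa) * (Real.log n / 2) = (m : ℝ) * (δa * Real.log n / 2) := by ring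
        _ ≤ _ := hmb
    have h4 : ((m : ℝ) * δa) * (Real.log n / 2) ≤ (2 * j) * (Real.log n / 2) := by
      calc _ ≤ (j : ℝ) * Real.log n := h3
        _ = _ := by ring
    exact le_of_mul_le_mul_right h4 (by linarith)
  have hm3 : (m : ℝ) ≤ 2 * μ₀ / δa := by
    rw [le_div_iff₀ hδa0]
    linarith
  refine ⟨hm3, ?_⟩
  -- `m < δ L`
  have hm4 : (m : ℝ) < δ * Real.log n := by
    have h5 : 2 * (μ₀ : ℝ) / δa < δ * Real.log n := by
      rw [div_lt_iff₀ hδa0]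
      nlinarith
    linarith
  have hup : (m : ℝ) * (- Real.log q) - (j : ℝ) * Real.log n < δ * Real.log n := by
    nlinarith
  rcases hsep j m hj1 hj with h | h
  · exfalso
    linarith
  · exact h

end Vale.Agent.Lib.P064
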