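import Vale.Agent.Lib.P064Sep.Fiber
import Vale.Agent.Lib.P064Two.Params

/-!
The count over a minimal set which is not low, under the one-sided separation.
-/

open Finset

namespace Vale.Agent.Lib.P064

open scoped Classical

/-- The bound on out-degrees of heavy arcs. -/
noncomputable def zD (δa δ : ℝ) (μ₀ : ℕ) : ℕ := ⌈(1 / δa + 1) / (δ / (16 * ((μ₀ : ℝ) + 1)))⌉₊

lemma one_le_zD {δa δ : ℝ} {μ₀ : ℕ} (hδa0 : 0 < δa) (hδ0 : 0 < δ) : 1 ≤ zD δa δ μ₀ := by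
  unfold zD
  have h1 : (0 : ℝ) ≤ μ₀ := Nat.cast_nonneg _
  have h : 0 < (1 / δa + 1) / (δ / (16 * ((μ₀ : ℝ) + 1))) := by positivity
  exact Nat.one_le_ceil_iff.2 h

/-- The constant per edge. -/
noncomputable def zC (D' : ℕ) : ℝ := Real.exp 6 * xCc D'

/-- The loss per edge. -/
noncomputable def zK (D' μ₀ n : ℕ) : ℝ :=
  zC D' * Real.exp (3 * Real.log (Real.log n) / μ₀)

lemma one_le_zC {D' : ℕ} (hD1 : 1 ≤ D') : 1 ≤ zC D' := by
  unfold zC
  have h1 := one_le_xCc hD1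
  have h2 : (1 : ℝ) ≤ Real.exp 6 := Real.one_le_exp (by norm_num)
  nlinarith

lemma one_le_zK {D' μ₀ n : ℕ} (hD1 : 1 ≤ D') (hL : 1 ≤ Real.log n) : 1 ≤ zK D' μ₀ n := by
  unfold zK
  have h1 := one_le_zC hD1
  have h2 : (1 : ℝ) ≤ Real.exp (3 * Real.log (Real.log n) / μ₀) := by
    apply Real.one_le_exp
    have := Real.log_nonneg hL
    positivity
  nlinarith

/-- The base bound for the pinned factor. -/
lemma z_pinned_le {D' μ₀ n a m : ℕ} (hD1 : 1 ≤ D') (hμ : 1 ≤ μ₀) (hL : 1 ≤ Real.log n)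
    (ham : a ≤ m) :
    Real.exp (2 * (m : ℝ)) * xCc D' ^ m *
        Real.exp ((a : ℝ) * Real.log (Real.log n * Real.log n) / μ₀) ≤ zK D' μ₀ n ^ m *
      Real.exp (-4 * (m : ℝ)) := by
  set ℓ := Real.log (Real.log n) with hℓ
  have hℓ0 : 0 ≤ ℓ := Real.log_nonneg hL
  have hL0 : Real.log n ≠ 0 := by linarith
  have hμ0 : (0 : ℝ) < μ₀ := by exact_mod_cast hμ
  have hamR : (a : ℝ) ≤ m := by exact_mod_cast ham
  have hm0 : (0 : ℝ) ≤ m := Nat.cast_nonneg _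
  have hlog : Real.log (Real.log n * Real.log n) = 2 * ℓ := by
    rw [Real.log_mul hL0 hL0, hℓ]
    ring
  rw [hlog]
  have h1 : zK D' μ₀ n ^ m = Real.exp (6 * (m : ℝ)) * xCc D' ^ m *
      Real.exp ((m : ℝ) * (3 * ℓ / μ₀)) := by
    unfold zK zC
    rw [mul_pow, mul_pow, ← Real.exp_nat_mul, ← Real.exp_nat_mul]
    congr 3
    ring
  rw [h1]
  have hc : 0 ≤ xCc D' ^ m := by
    have := one_le_xCc hD1
    positivity
  have h2 : (a : ℝ) * (2 * ℓ) / μ₀ ≤ (m : ℝ) * (3 * ℓ / μ₀) := by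
    rw [div_le_iff₀ hμ0]
    have h3 : (m : ℝ) * (3 * ℓ / μ₀) * μ₀ = (m : ℝ) * (3 * ℓ) := by
      field_simp
    rw [h3]
    have h4 : (a : ℝ) * ℓ ≤ (m : ℝ) * ℓ := mul_le_mul_of_nonneg_right hamR hℓ0
    nlinarith [mul_nonneg hm0 hℓ0]
  have h5 := Real.exp_le_exp.2 h2
  have h6 : Real.exp (2 * (m : ℝ)) = Real.exp (6 * (m : ℝ)) * Real.exp (-4 * (m : ℝ)) := by
    rw [← Real.exp_add]
    congr 1
    ring
  rw [h6]
  have hE1 := Real.exp_pos (6 * (m : ℝ))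
  have hE2 := Real.exp_pos (-4 * (m : ℝ))
  calc Real.exp (6 * (m : ℝ)) * Real.exp (-4 * (m : ℝ)) * xCc D' ^ m *
        Real.exp ((a : ℝ) * (2 * ℓ) / μ₀)
      ≤ Real.exp (6 * (m : ℝ)) * Real.exp (-4 * (m : ℝ)) * xCc D' ^ m *
        Real.exp ((m : ℝ) * (3 * ℓ / μ₀)) := by
        apply mul_le_mul_of_nonneg_left h5
        positivity
    _ = _ := by ring

/-- Case `t ≤ e² x`. -/
theorem z_final_A {D' μ₀ n a m : ℕ} {x t : ℝ} (hD1 : 1 ≤ D') (hμ : 1 ≤ μ₀)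
    (hL : 1 ≤ Real.log n) (ham : a ≤ m) (hx : 0 ≤ x) (ht0 : 0 ≤ t) (ht : t ≤ Real.exp 2 * x)
    (ha : 1 ≤ a) :
    (a : ℝ) * (t * a) * (Real.exp (2 * (m : ℝ)) * xCc D' ^ m *
        Real.exp ((a : ℝ) * Real.log (Real.log n * Real.log n) / μ₀)) ≤
      xA ^ a * zK D' μ₀ n ^ m * x := by
  have hP := z_pinned_le (D' := D') (μ₀ := μ₀) (n := n) (a := a) (m := m) hD1 hμ hL ham
  have hK1 := one_le_zK (D' := D') (μ₀ := μ₀) (n := n) hD1 hL
  have hKm : 0 ≤ zK D' μ₀ n ^ m := by positivity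
  have ha1 : (1 : ℝ) ≤ a := by exact_mod_cast ha
  have hm0 : (0 : ℝ) ≤ m := Nat.cast_nonneg _
  have hA : xA ^ a = Real.exp ((a : ℝ) * 8) := by
    unfold xA
    rw [Real.exp_nat_mul]
  have h1 : (a : ℝ) ^ 2 * Real.exp 2 ≤ Real.exp ((a : ℝ) * 8) := by
    have h2 := y_sq_le (a := a)
    have h3 : Real.exp 2 ≤ Real.exp (2 * (a : ℝ)) := Real.exp_le_exp.2 (by linarith)
    calc (a : ℝ) ^ 2 * Real.exp 2 ≤ Real.exp (2 * (a : ℝ)) * Real.exp (2 * (a : ℝ)) :=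
          mul_le_mul h2 h3 (Real.exp_pos _).le (Real.exp_pos _).le
      _ = Real.exp (4 * (a : ℝ)) := by
          rw [← Real.exp_add]
          ring_nf
      _ ≤ _ := Real.exp_le_exp.2 (by linarith)
  have hE : Real.exp (-4 * (m : ℝ)) ≤ 1 := by
    rw [Real.exp_le_one_iff]
    linarith
  have hP' : Real.exp (2 * (m : ℝ)) * xCc D' ^ m *
        Real.exp ((a : ℝ) * Real.log (Real.log n * Real.log n) / μ₀) ≤ zK D' μ₀ n ^ m := by
    refine hP.trans ?_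
    nlinarith
  have h0 : 0 ≤ Real.exp (2 * (m : ℝ)) * xCc D' ^ m *
        Real.exp ((a : ℝ) * Real.log (Real.log n * Real.log n) / μ₀) := by
    have := one_le_xCc hD1
    positivity
  have h13 : (a : ℝ) * (t * a) ≤ Real.exp ((a : ℝ) * 8) * x := by
    have h14 : (a : ℝ) * (t * a) = (a : ℝ) ^ 2 * t := by ring
    rw [h14]
    have h15 : (a : ℝ) ^ 2 * t ≤ (a : ℝ) ^ 2 * (Real.exp 2 * x) :=
      mul_le_mul_of_nonneg_left ht (by positivity)
    have h16 : (a : ℝ) ^ 2 * (Real.exp 2 * x) = ((a : ℝ) ^ 2 * Real.exp 2) * x := by ring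
    rw [h16] at h15
    exact h15.trans (mul_le_mul_of_nonneg_right h1 hx)
  rw [hA]
  calc _ ≤ (Real.exp ((a : ℝ) * 8) * x) * zK D' μ₀ n ^ m :=
        mul_le_mul h13 hP' h0 (by positivity)
    _ = _ := by ring

/-- Case `t ≤ b L`, `μ₀ ≤ a`. -/
theorem z_final_B {D' μ₀ n a m b : ℕ} {x t : ℝ} (hD1 : 1 ≤ D') (hμ : 1 ≤ μ₀)
    (hL : 1 ≤ Real.log n) (ham : a ≤ m) (hm1 : 1 ≤ m) (hb : b ≤ 2 * m) (hμa : μ₀ ≤ a)
    (hx : Real.exp (-(m : ℝ)) ≤ x) (ht0 : 0 ≤ t) (ht : t ≤ b * Real.log n) :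
    (a : ℝ) * (t * a) * (Real.exp (2 * (m : ℝ)) * xCc D' ^ m *
        Real.exp ((a : ℝ) * Real.log (Real.log n * Real.log n) / μ₀)) ≤
      xA ^ a * zK D' μ₀ n ^ m * x := by
  have hP := z_pinned_le (D' := D') (μ₀ := μ₀) (n := n) (a := a) (m := m) hD1 hμ hL ham
  have hK1 := one_le_zK (D' := D') (μ₀ := μ₀) (n := n) hD1 hL
  have hKm : 0 ≤ zK D' μ₀ n ^ m := by positivity
  have ha0 : (0 : ℝ) ≤ a := Nat.cast_nonneg _
  have hm0 : (0 : ℝ) ≤ m := Nat.cast_nonneg _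
  have hμ0 : (0 : ℝ) < μ₀ := by exact_mod_cast hμ
  have hμaR : (μ₀ : ℝ) ≤ a := by exact_mod_cast hμa
  have hA : xA ^ a = Real.exp ((a : ℝ) * 8) := by
    unfold xA
    rw [Real.exp_nat_mul]
  set ℓ := Real.log (Real.log n) with hℓ
  have hℓ0 : 0 ≤ ℓ := Real.log_nonneg hL
  have hL0 : 0 < Real.log n := by linarith
  have hbR : (b : ℝ) ≤ 2 * m := by exact_mod_cast hb
  -- this is the only place where `μ₀ ≤ a` is used: `L ≤ exp (a ℓ / μ₀)`
  have hLexp : Real.log n ≤ Real.exp ((a : ℝ) * ℓ / μ₀) := by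
    have h1 : Real.log n = Real.exp ℓ := (Real.exp_log hL0).symm
    rw [h1]
    apply Real.exp_le_exp.2
    rw [le_div_iff₀ hμ0]
    have h2 : ℓ * (μ₀ : ℝ) ≤ ℓ * a := mul_le_mul_of_nonneg_left hμaR hℓ0
    linarith
  have ht2 : t ≤ 2 * m * Real.exp ((a : ℝ) * ℓ / μ₀) := by
    calc t ≤ b * Real.log n := ht
      _ ≤ (2 * m) * Real.exp ((a : ℝ) * ℓ / μ₀) :=
          mul_le_mul hbR hLexp hL0.le (by positivity)
  -- now the whole left side
  have hlog : Real.log (Real.log n * Real.log n) = 2 * ℓ := by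
    rw [Real.log_mul hL0.ne' hL0.ne', hℓ]
    ring
  have hpin0 : 0 ≤ Real.exp (2 * (m : ℝ)) * xCc D' ^ m *
        Real.exp ((a : ℝ) * Real.log (Real.log n * Real.log n) / μ₀) := by
    have := one_le_xCc hD1
    positivity
  have h2m : 2 * (m : ℝ) ≤ Real.exp (2 * (m : ℝ)) := by
    have := Real.add_one_le_exp (2 * (m : ℝ))
    linarith
  have hsq := y_sq_le (a := a)
  have hrest : (a : ℝ) * (t * a) ≤
      Real.exp ((a : ℝ) * 8) * (Real.exp (2 * (m : ℝ)) * Real.exp ((a : ℝ) * ℓ / μ₀)) := by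
    have h14 : (a : ℝ) * (t * a) = (a : ℝ) ^ 2 * t := by ring
    rw [h14]
    have h3 : t ≤ Real.exp (2 * (m : ℝ)) * Real.exp ((a : ℝ) * ℓ / μ₀) :=
      ht2.trans (mul_le_mul_of_nonneg_right h2m (Real.exp_pos _).le)
    have h4 : Real.exp (2 * (a : ℝ)) ≤ Real.exp ((a : ℝ) * 8) := Real.exp_le_exp.2 (by linarith)
    exact mul_le_mul (hsq.trans h4) h3 ht0 (Real.exp_pos _).le
  -- use a better split of the exponent
  have hP2 : Real.exp (2 * (m : ℝ)) * xCc D' ^ m *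
        Real.exp ((a : ℝ) * (2 * ℓ) / μ₀) * Real.exp ((a : ℝ) * ℓ / μ₀) ≤
      zK D' μ₀ n ^ m * Real.exp (-4 * (m : ℝ)) := by
    have h5 : zK D' μ₀ n ^ m = Real.exp (6 * (m : ℝ)) * xCc D' ^ m *
        Real.exp ((m : ℝ) * (3 * ℓ / μ₀)) := by
      unfold zK zC
      rw [mul_pow, mul_pow, ← Real.exp_nat_mul, ← Real.exp_nat_mul]
      congr 3
      ring
    rw [h5]
    have hc : 0 ≤ xCc D' ^ m := by
      have := one_le_xCc hD1
      positivity
    have h6 : Real.exp ((a : ℝ) * (2 * ℓ) / μ₀) * Real.exp ((a : ℝ) * ℓ / μ₀) ≤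
        Real.exp ((m : ℝ) * (3 * ℓ / μ₀)) := by
      rw [← Real.exp_add]
      apply Real.exp_le_exp.2
      have h7 : (a : ℝ) * (2 * ℓ) / μ₀ + (a : ℝ) * ℓ / μ₀ = (a : ℝ) * (3 * ℓ / μ₀) := by
        field_simp
        ring
      rw [h7]
      have hamR : (a : ℝ) ≤ m := by exact_mod_cast ham
      exact mul_le_mul_of_nonneg_right hamR (by positivity)
    have h8 : Real.exp (2 * (m : ℝ)) = Real.exp (6 * (m : ℝ)) * Real.exp (-4 * (m : ℝ)) := by
      rw [← Real.exp_add]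
      congr 1
      ring
    rw [h8]
    calc Real.exp (6 * (m : ℝ)) * Real.exp (-4 * (m : ℝ)) * xCc D' ^ m *
          Real.exp ((a : ℝ) * (2 * ℓ) / μ₀) * Real.exp ((a : ℝ) * ℓ / μ₀)
        = Real.exp (6 * (m : ℝ)) * Real.exp (-4 * (m : ℝ)) * xCc D' ^ m *
          (Real.exp ((a : ℝ) * (2 * ℓ) / μ₀) * Real.exp ((a : ℝ) * ℓ / μ₀)) := by ring
      _ ≤ Real.exp (6 * (m : ℝ)) * Real.exp (-4 * (m : ℝ)) * xCc D' ^ m *
          Real.exp ((m : ℝ) * (3 * ℓ / μ₀)) := by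
          apply mul_le_mul_of_nonneg_left h6
          positivity
      _ = _ := by ring
  rw [hlog, hA]
  have hEa := Real.exp_pos ((a : ℝ) * 8)
  have hEm := Real.exp_pos (2 * (m : ℝ))
  have hEb := Real.exp_pos ((a : ℝ) * ℓ / μ₀)
  have hcc : 0 ≤ xCc D' ^ m := by
    have := one_le_xCc hD1
    positivity
  have hE2 := Real.exp_pos ((a : ℝ) * (2 * ℓ) / μ₀)
  have hfinal : Real.exp (2 * (m : ℝ)) * Real.exp (-4 * (m : ℝ)) ≤ Real.exp (-(m : ℝ)) := by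
    rw [← Real.exp_add]
    apply Real.exp_le_exp.2
    linarith
  calc (a : ℝ) * (t * a) * (Real.exp (2 * (m : ℝ)) * xCc D' ^ m *
        Real.exp ((a : ℝ) * (2 * ℓ) / μ₀))
      ≤ (Real.exp ((a : ℝ) * 8) * (Real.exp (2 * (m : ℝ)) * Real.exp ((a : ℝ) * ℓ / μ₀))) *
        (Real.exp (2 * (m : ℝ)) * xCc D' ^ m *
        Real.exp ((a : ℝ) * (2 * ℓ) / μ₀)) := by
        apply mul_le_mul_of_nonneg_right hrest
        positivity
    _ = Real.exp ((a : ℝ) * 8) * Real.exp (2 * (m : ℝ)) *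
        (Real.exp (2 * (m : ℝ)) * xCc D' ^ m *
        Real.exp ((a : ℝ) * (2 * ℓ) / μ₀) * Real.exp ((a : ℝ) * ℓ / μ₀)) := by ring
    _ ≤ Real.exp ((a : ℝ) * 8) * Real.exp (2 * (m : ℝ)) *
        (zK D' μ₀ n ^ m * Real.exp (-4 * (m : ℝ))) :=
        mul_le_mul_of_nonneg_left hP2 (by positivity)
    _ = Real.exp ((a : ℝ) * 8) * zK D' μ₀ n ^ m *
        (Real.exp (2 * (m : ℝ)) * Real.exp (-4 * (m : ℝ))) := by ring
    _ ≤ Real.exp ((a : ℝ) * 8) * zK D' μ₀ n ^ m * Real.exp (-(m : ℝ)) :=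
        mul_le_mul_of_nonneg_left hfinal (by positivity)
    _ ≤ _ := mul_le_mul_of_nonneg_left hx (by positivity)

variable {V α : Type} [Fintype V] [Fintype α] {H : SimpleGraph V} {F : SimpleGraph α} {n : ℕ}
  {q : ℝ}

/-- The count over a minimal set which is not low, under separation. -/
theorem z_fiber {δ δa : ℝ} {μ₀ : ℕ} (hG : GoodDensity n q H) (hn : 2 ≤ n) (hV : Fintype.card V ≤ n)
    (hq0 : 0 < q) (hqe : q ≤ Real.exp (-1)) (hL : 1 ≤ Real.log n) (hD : 1 ≤ (n : ℝ) * q)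
    (hδ0 : 0 < δ) (hδ1 : δ ≤ 1) (hδa0 : 0 < δa) (hδa1 : δa ≤ 1) (hμ₀ : 2 ≤ μ₀)
    (hlam : δa * Real.log n ≤ - Real.log q) (hsep : ZSep n q δ (4 * (μ₀ : ℝ) / δa) μ₀)
    (hbig : 4 * (μ₀ : ℝ) ≤ δa * δ * Real.log n)
    {E I : Finset α} (hdisj : Disjoint I E) (hne : I.Nonempty)
    (hτ : 1 ≤ (n : ℝ) ^ I.card * (Real.exp 1 * q) ^ eT F (E ∪ I) I)
    (hmin : ∀ J ⊆ I, J.Nonempty → J ≠ I → Low n q F (E ∪ I) J)
    {S : Finset (α → V)} (hinj : ∀ φ ∈ S, Function.Injective φ)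
    (hhom : ∀ φ ∈ S, ∀ u v, F.Adj u v → H.Adj (φ u) (φ v))
    {φ₀ : α → V} (hagree : ∀ φ ∈ S, ∀ x ∈ E, φ x = φ₀ x) :
    ((S.image (proj (E ∪ I))).card : ℝ) ≤
      xA ^ I.card * zK (zD δa δ μ₀) μ₀ n ^ (newE F E I).card *
        ((n : ℝ) ^ I.card * q ^ (newE F E I).card) := by
  have hD1 : 1 ≤ zD δa δ μ₀ := one_le_zD hδa0 hδ0
  have hn2 : (2 : ℝ) ≤ n := by exact_mod_cast hn
  have hn1 : (1 : ℝ) ≤ n := by linarith
  have hn0 : (0 : ℝ) < n := by linarith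
  have hn' : 1 ≤ n := by omega
  have hL0 : 0 ≤ Real.log n := by linarith
  have hq1 : q ≤ 1 := hqe.trans (by rw [Real.exp_le_one_iff]; norm_num)
  have hμ1 : 1 ≤ μ₀ := by omega
  have hμR : (1 : ℝ) ≤ μ₀ := by exact_mod_cast hμ1
  have hμ0 : (0 : ℝ) < μ₀ := by linarith
  have hK1 := one_le_zK (D' := zD δa δ μ₀) (μ₀ := μ₀) (n := n) hD1 hL
  have hA1 := one_le_xA
  have hE2 : 0 < Real.exp 2 := Real.exp_pos _
  have hτ' := hτ
  rw [eT_union_self hdisj] at hτ'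
  by_cases hS : S.Nonempty
  swap
  · rw [Finset.not_nonempty_iff_eq_empty] at hS
    rw [hS]
    simp only [Finset.image_empty, Finset.card_empty, Nat.cast_zero]
    have hA0 : 0 ≤ xA := by linarith
    positivity
  have ha1 : 1 ≤ I.card := Finset.card_pos.2 hne
  by_cases ha : I.card = 1
  · -- a single vertex
    obtain ⟨z, rfl⟩ := Finset.card_eq_one.1 ha
    have hzE : z ∉ E := Finset.disjoint_left.1 hdisj (Finset.mem_singleton_self z)
    rw [Finset.card_singleton] at hτ' ⊢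
    rw [pow_one] at hτ' ⊢
    obtain ⟨hmb, hρ⟩ := z_notlow (j := 1) (m := (newE F E {z}).card) hq0 hL hδ0 hδ1 hδa0 hlam hsep
      hbig le_rfl (by omega) hn' (by simpa using hτ')
    rw [pow_one] at hρ
    set m := (newE F E {z}).card with hm
    have hlight : ∀ d : ℕ, 1 ≤ d → d < m + 1 →
        (d : ℝ) * Real.log n ≤ Real.exp 2 * ((n : ℝ) * q ^ d) := by
      intro d _ hd2
      have hdm : d ≤ m := by omega
      have hdmR : (d : ℝ) ≤ m := by exact_mod_cast hdm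
      have h1 : q ^ m ≤ q ^ d := pow_le_pow_of_le_one hq0.le hq1 hdm
      have h2 : (n : ℝ) * q ^ m ≤ (n : ℝ) * q ^ d := mul_le_mul_of_nonneg_left h1 hn0.le
      have h3 : (d : ℝ) * Real.log n ≤ (4 * (μ₀ : ℝ) / δa) * Real.log n := by
        apply mul_le_mul_of_nonneg_right _ hL0
        have h4 : 2 * (μ₀ : ℝ) / δa ≤ 4 * (μ₀ : ℝ) / δa := by
          apply div_le_div_of_nonneg_right _ hδa0.le
          linarith
        linarith
      have h5 : (1 : ℝ) ≤ Real.exp 2 := Real.one_le_exp (by norm_num)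
      have h6 : 0 ≤ (n : ℝ) * q ^ d := by positivity
      calc (d : ℝ) * Real.log n ≤ (n : ℝ) * q ^ d := by linarith
        _ = 1 * ((n : ℝ) * q ^ d) := by ring
        _ ≤ _ := mul_le_mul_of_nonneg_right h5 h6
    have h1 := peel_light (κ := 1) (A := Real.exp 2) hG hq0 hq1 hn' hV le_rfl le_rfl (m + 1) hlight
      hzE (by omega) S hinj hhom hagree
    rw [← hm] at h1
    simp only [one_pow, mul_one] at h1
    refine h1.trans ?_
    have h2 : Real.exp 2 ≤ xA := by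
      unfold xA
      exact Real.exp_le_exp.2 (by norm_num)
    have h3 : (1 : ℝ) ≤ zK (zD δa δ μ₀) μ₀ n ^ m := one_le_pow₀ hK1
    have h4 : Real.exp 2 ≤ xA * zK (zD δa δ μ₀) μ₀ n ^ m := by nlinarith
    rw [pow_one]
    exact mul_le_mul_of_nonneg_right h4 (by positivity)
  -- at least two vertices
  have ha2 : 2 ≤ I.card := by omega
  have hconn := conn_of_min hn' hq0 hqe hdisj hτ hmin
  have hdeg : ∀ w ∈ I, 2 ≤ dW F (E ∪ I) w := by
    intro w hw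
    have hsub : ({w} : Finset α) ⊆ I := Finset.singleton_subset_iff.2 hw
    have hne' : ({w} : Finset α) ≠ I := by
      intro h
      rw [← h, Finset.card_singleton] at ha
      exact ha rfl
    have := low_card_lt hq0 hqe hD (hmin {w} hsub (Finset.singleton_nonempty w) hne')
    rw [Finset.card_singleton] at this
    exact this
  have hsum := sum_dW_add_core (F := F) E I hdisj
  have h2a : 2 * I.card ≤ ∑ w ∈ I, dW F (E ∪ I) w := by
    calc 2 * I.card = ∑ _w ∈ I, 2 := by simp [mul_comm]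
      _ ≤ _ := Finset.sum_le_sum hdeg
  have ham : I.card ≤ (newE F E I).card := by omega
  have hb2m : (core F E I).card ≤ 2 * (newE F E I).card := by omega
  have hm1 : 1 ≤ (newE F E I).card := by omega
  have hρexp : Real.exp (-((newE F E I).card : ℝ)) ≤ (n : ℝ) ^ I.card * q ^ (newE F E I).card :=
    tau_exp hq0 hτ'
  have hρ0 : 0 ≤ (n : ℝ) ^ I.card * q ^ (newE F E I).card := by positivity
  have hbig2 : 2 * (μ₀ : ℝ) ≤ δ * Real.log n := by
    have h1 : δa * δ ≤ 1 * δ := mul_le_mul_of_nonneg_right hδa1 hδ0.le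
    have h2 : δa * δ * Real.log n ≤ (1 * δ) * Real.log n := mul_le_mul_of_nonneg_right h1 hL0
    linarith
  have hA1' : 1 ≤ 4 * (μ₀ : ℝ) / δa := by
    rw [le_div_iff₀ hδa0]
    linarith
  obtain ⟨w, M, c, T, hw, hs, hT, h2T, hcT, hμ3⟩ :=
    z_params (H := H) hn' hq0 hqe hG hD hL hδ0 hδ1 hμ1 hδa0 hA1' hlam hsep hbig2
  have hpin : ∀ x' ∈ I, ∀ y,
      (((S.filter (fun φ => φ x' = y)).image (proj (E ∪ I))).card : ℝ) ≤
        Real.exp (2 * ((newE F E I).card : ℝ)) * xCc (zD δa δ μ₀) ^ (newE F E I).card *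
          Real.exp ((I.card : ℝ) * Real.log (Real.log n * Real.log n) / μ₀) := by
    intro x' hx' y
    exact y_pinned hG hn' hV hq0 hqe hD hL hw hs hT h2T (D' := zD δa δ μ₀) hD1 hcT hμ0 hμ3
      hdisj hmin hinj hhom hagree hx' y
  have hP0 : 0 ≤ Real.exp (2 * ((newE F E I).card : ℝ)) * xCc (zD δa δ μ₀) ^ (newE F E I).card *
      Real.exp ((I.card : ℝ) * Real.log (Real.log n * Real.log n) / μ₀) := by
    have := one_le_xCc hD1
    positivity
  obtain ⟨t, ht1, hdich, hcount⟩ := cover_pinned hG hq0 hq1 hn' hne hdisj hm1 S hS hinj hhom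
    hagree hP0 hpin
  refine hcount.trans ?_
  have ht0 : (0 : ℝ) ≤ t := Nat.cast_nonneg t
  have hfin_A : (t : ℝ) ≤ Real.exp 2 * ((n : ℝ) ^ I.card * q ^ (newE F E I).card) → _ :=
    fun h => z_final_A (D' := zD δa δ μ₀) (μ₀ := μ₀) (n := n) hD1 hμ1 hL ham hρ0 ht0 h ha1
  rcases hdich with h | h
  · by_cases hcase : μ₀ ≤ I.card
    · exact z_final_B hD1 hμ1 hL ham hm1 hb2m hcase hρexp ht0 h
    · -- few vertices: the room is large
      push Not at hcase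
      obtain ⟨hmb, hρ⟩ := z_notlow hq0 hL hδ0 hδ1 hδa0 hlam hsep hbig ha1 hcase hn' hτ'
      apply hfin_A
      have hbR : ((core F E I).card : ℝ) ≤ 4 * (μ₀ : ℝ) / δa := by
        have h1 : ((core F E I).card : ℝ) ≤ 2 * ((newE F E I).card : ℝ) := by exact_mod_cast hb2m
        have h2 : 2 * (2 * (μ₀ : ℝ) / δa) = 4 * (μ₀ : ℝ) / δa := by ring
        linarith
      have h3 : (t : ℝ) ≤ (4 * (μ₀ : ℝ) / δa) * Real.log n :=
        h.trans (mul_le_mul_of_nonneg_right hbR hL0)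
      have h4 : (1 : ℝ) ≤ Real.exp 2 := Real.one_le_exp (by norm_num)
      calc (t : ℝ) ≤ (n : ℝ) ^ I.card * q ^ (newE F E I).card := by linarith
        _ = 1 * ((n : ℝ) ^ I.card * q ^ (newE F E I).card) := by ring
        _ ≤ _ := mul_le_mul_of_nonneg_right h4 hρ0
  · exact hfin_A h

end Vale.Agent.Lib.P064
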